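import Vale.Agent.P331.H250.Ker
import Vale.Agent.P331.H379.JLabel

/-!
# Lemma L: the luck of one level, abstract form
-/

set_option autoImplicit false
set_option linter.unusedSectionVars false
set_option linter.unusedVariables false

namespace Vale.Agent.P331.H141

open Finset Vale.Agent.P331.H489 Vale.Agent.P331.H250 Vale.Agent.P331.H379
open scoped Classical

section

variable {E : Type*} [Fintype E] [DecidableEq E]

/-- constant rate thinning -/
noncomputable def T (r : ℝ) (S : Finset E) (f : Finset E → ℝ) : ℝ := TH (fun _ => r) S f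

/-- indicator of failure -/
noncomputable def ind (P : Prop) : ℝ := if P then 1 else 0

theorem ind_nonneg (P : Prop) : 0 ≤ ind P := by unfold ind; split_ifs <;> norm_num

theorem ind_le_one (P : Prop) : ind P ≤ 1 := by unfold ind; split_ifs <;> norm_num

theorem ind_pos {P : Prop} (h : P) : ind P = 1 := if_pos h

theorem ind_neg {P : Prop} (h : ¬ P) : ind P = 0 := if_neg h

theorem ind_mono {P Q : Prop} (h : P → Q) : ind P ≤ ind Q := by
  by_cases hP : P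
  · rw [ind_pos hP, ind_pos (h hP)]
  · rw [ind_neg hP]; exact ind_nonneg Q

/-- miss probability of `A` with noise of rate `θ` in `R` -/
noncomputable def miss (D : Finset E → Prop) (θ : ℝ) (R A : Finset E) : ℝ :=
  T θ R fun N => ind (¬ D (A ∪ N))

theorem T_nonneg {r : ℝ} (h0 : 0 ≤ r) (h1 : r ≤ 1) (S : Finset E) {f : Finset E → ℝ}
    (hf : ∀ G, G ⊆ S → 0 ≤ f G) : 0 ≤ T r S f := TH_nonneg (fun _ => h0) (fun _ => h1) S hf

theorem T_mono {r : ℝ} (h0 : 0 ≤ r) (h1 : r ≤ 1) (S : Finset E) {f g : Finset E → ℝ}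
    (hf : ∀ G, G ⊆ S → f G ≤ g G) : T r S f ≤ T r S g :=
  TH_mono (fun _ => h0) (fun _ => h1) S hf

theorem T_const (r : ℝ) (S : Finset E) (c : ℝ) : T r S (fun _ => c) = c := TH_const _ _ _

theorem T_add (r : ℝ) (S : Finset E) (f g : Finset E → ℝ) :
    T r S (fun G => f G + g G) = T r S f + T r S g := TH_add _ _ _ _

theorem T_mul (r : ℝ) (S : Finset E) (c : ℝ) (f : Finset E → ℝ) :
    T r S (fun G => c * f G) = c * T r S f := TH_mul _ _ _ _

theorem T_congr {r : ℝ} {S : Finset E} {f g : Finset E → ℝ} (hf : ∀ G, G ⊆ S → f G = g G) :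
    T r S f = T r S g := TH_congr (fun _ _ => rfl) hf

theorem T_le_one {r : ℝ} (h0 : 0 ≤ r) (h1 : r ≤ 1) (S : Finset E) {f : Finset E → ℝ}
    (hf : ∀ G, G ⊆ S → f G ≤ 1) : T r S f ≤ 1 :=
  (T_mono h0 h1 S hf).trans (T_const r S 1).le

/-- Markov -/
theorem T_markov {r : ℝ} (h0 : 0 ≤ r) (h1 : r ≤ 1) (S : Finset E) {f : Finset E → ℝ}
    (hf : ∀ G, G ⊆ S → 0 ≤ f G) {t : ℝ} (P : Finset E → Prop)
    (hP : ∀ G, G ⊆ S → P G → t ≤ f G) : t * T r S (fun G => ind (P G)) ≤ T r S f := by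
  rw [← T_mul]
  refine T_mono h0 h1 S fun G hG => ?_
  by_cases h : P G
  · rw [ind_pos h, mul_one]; exact hP G hG h
  · rw [ind_neg h, mul_zero]; exact hf G hG

theorem miss_nonneg {D : Finset E → Prop} {θ : ℝ} (h0 : 0 ≤ θ) (h1 : θ ≤ 1) (R A : Finset E) :
    0 ≤ miss D θ R A := T_nonneg h0 h1 R fun _ _ => ind_nonneg _

theorem miss_le_one {D : Finset E → Prop} {θ : ℝ} (h0 : 0 ≤ θ) (h1 : θ ≤ 1) (R A : Finset E) :
    miss D θ R A ≤ 1 := T_le_one h0 h1 R fun _ _ => ind_le_one _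

theorem miss_anti {D : Finset E → Prop} (hD : ∀ A B, A ⊆ B → D A → D B) {θ : ℝ} (h0 : 0 ≤ θ)
    (h1 : θ ≤ 1) (R : Finset E) {A B : Finset E} (h : A ⊆ B) : miss D θ R B ≤ miss D θ R A :=
  T_mono h0 h1 R fun N _ => ind_mono fun h2 h3 => h2 (hD _ _ (union_subset_union h subset_rfl) h3)

/-- the two stages: pool of rate `γ2` thrown away -/
theorem miss_split {D : Finset E → Prop} {γ2 θ θ2 : ℝ} (h : (1 - γ2) * θ2 = θ)
    (R A : Finset E) : T γ2 R (fun G => miss D θ2 (R \ G) A) = miss D θ R A := by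
  unfold miss T
  exact TH_TH_snd (fun _ => γ2) (fun _ => θ2) (fun _ => θ) R (fun _ _ => h)
    (fun N => ind (¬ D (A ∪ N)))

/-- the two stages: pool recycled as noise -/
theorem miss_recycle {D : Finset E → Prop} {γ2 θ θ3 : ℝ} (h : γ2 + (1 - γ2) * θ3 = θ)
    (R A : Finset E) : T γ2 R (fun G => miss D θ3 (R \ G) (A ∪ G)) = miss D θ R A := by
  have h1 := TH_TH_union (fun _ => γ2) (fun _ => θ3) (fun _ => θ) R (fun _ _ => h)
    (fun N => ind (¬ D (A ∪ N)))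
  unfold miss T
  rw [← h1]
  refine TH_congr (fun _ _ => rfl) fun G _ => TH_congr (fun _ _ => rfl) fun N _ => ?_
  rw [union_assoc]

/-- exchange of the pools -/
theorem T_swap {γ γ2 : ℝ} (h : (1 - γ) * γ2 = γ) (S : Finset E)
    (F : Finset E → Finset E → ℝ) :
    T γ S (fun G => T γ2 (S \ G) (fun H => F G H)) =
      T γ S (fun H => T γ2 (S \ H) (fun G => F G H)) :=
  TH_TH_swap (fun _ => γ) (fun _ => γ2) (fun _ => γ) (fun _ => γ2) S (fun _ _ => h)
    (fun _ _ => h) F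

/-- failure to have a good small subset -/
noncomputable def fail (D : Finset E → Prop) (θ : ℝ) (k : ℕ) (β : ℝ) (R G X : Finset E) : ℝ :=
  ind (¬ ∃ Y ⊆ X, Y.card ≤ k ∧ miss D θ (R \ G) (Y ∪ G) ≤ β)

/-- **Transfer** to `S - G₂`. -/
theorem transfer {D : Finset E → Prop} {γ γ2 θ θ2 : ℝ} (hγ0 : 0 ≤ γ) (hγ1 : γ ≤ 1)
    (hγ20 : 0 ≤ γ2) (hγ21 : γ2 ≤ 1) (hθ20 : 0 ≤ θ2) (hθ21 : θ2 ≤ 1)
    (e1 : (1 - γ) * γ2 = γ) (e2 : (1 - γ2) * θ2 = θ) (S X : Finset E) {k : ℕ} {β β2 a τ : ℝ}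
    (hβ : 0 ≤ β) (hβ2 : 0 < β2) (h : T γ S (fun G => fail D θ k β S G X) ≤ τ) :
    a * T γ S (fun G2 => ind (¬ T γ2 (S \ G2) (fun G => fail D θ2 k β2 (S \ G2) G X) ≤ a)) ≤
      τ + β / β2 := by
  have hf0 : ∀ (θ' : ℝ) (k' : ℕ) (β' : ℝ) (R G X : Finset E), 0 ≤ fail D θ' k' β' R G X :=
    fun _ _ _ _ _ _ => ind_nonneg _
  have h1 : a * T γ S (fun G2 => ind (¬ T γ2 (S \ G2)
      (fun G => fail D θ2 k β2 (S \ G2) G X) ≤ a)) ≤
      T γ S (fun G2 => T γ2 (S \ G2) (fun G => fail D θ2 k β2 (S \ G2) G X)) :=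
    T_markov hγ0 hγ1 S (fun G _ => T_nonneg hγ20 hγ21 _ fun _ _ => hf0 _ _ _ _ _ _) _
      fun G _ hG => (not_le.1 hG).le
  refine h1.trans ?_
  rw [T_swap e1 S (fun G2 G => fail D θ2 k β2 (S \ G2) G X)]
  have h2 : ∀ G, G ⊆ S → T γ2 (S \ G) (fun G2 => fail D θ2 k β2 (S \ G2) G X) ≤
      fail D θ k β S G X + β / β2 := by
    intro G _
    by_cases hg : ∃ Y ⊆ X, Y.card ≤ k ∧ miss D θ (S \ G) (Y ∪ G) ≤ β
    · obtain ⟨Y, hYX, hYk, hY⟩ := hg
      have h3 : β2 * T γ2 (S \ G) (fun G2 => ind (β2 < miss D θ2 ((S \ G) \ G2) (Y ∪ G))) ≤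
          miss D θ (S \ G) (Y ∪ G) := by
        rw [← miss_split e2 (S \ G) (Y ∪ G)]
        exact T_markov hγ20 hγ21 _ (fun G _ => miss_nonneg hθ20 hθ21 _ _) _ fun G2 _ h => h.le
      have h4 : T γ2 (S \ G) (fun G2 => fail D θ2 k β2 (S \ G2) G X) ≤
          T γ2 (S \ G) (fun G2 => ind (β2 < miss D θ2 ((S \ G) \ G2) (Y ∪ G))) := by
        refine T_mono hγ20 hγ21 _ fun G2 _ => ind_mono fun h5 => ?_
        by_contra h6
        refine h5 ⟨Y, hYX, hYk, ?_⟩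
        rw [sdiff_right_comm]
        exact not_lt.1 h6
      have h5 : T γ2 (S \ G) (fun G2 => ind (β2 < miss D θ2 ((S \ G) \ G2) (Y ∪ G))) ≤
          β / β2 := by
        rw [le_div_iff₀ hβ2, mul_comm]
        exact h3.trans hY
      have h6 := hf0 θ k β S G X
      linarith
    · have h3 : fail D θ k β S G X = 1 := ind_pos hg
      rw [h3]
      have h4 : T γ2 (S \ G) (fun G2 => fail D θ2 k β2 (S \ G2) G X) ≤ 1 :=
        T_le_one hγ20 hγ21 _ fun _ _ => ind_le_one _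
      have h5 : 0 ≤ β / β2 := div_nonneg hβ hβ2.le
      linarith
  calc T γ S (fun G => T γ2 (S \ G) (fun G2 => fail D θ2 k β2 (S \ G2) G X))
      ≤ T γ S (fun G => fail D θ k β S G X + β / β2) := T_mono hγ0 hγ1 S h2
    _ = T γ S (fun G => fail D θ k β S G X) + β / β2 := by rw [T_add, T_const]
    _ ≤ τ + β / β2 := by linarith

/-- labels: test set, pool, rest of the sample -/
inductive L3 | v | h | r
  deriving DecidableEq

instance : Fintype L3 := ⟨{.v, .h, .r}, by intro x; cases x <;> decide⟩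

theorem sum_L3 (f : L3 → ℝ) : ∑ l, f l = f .v + f .h + f .r := by
  have h : (univ : Finset L3) = {.v, .h, .r} := rfl
  rw [h, sum_insert (by decide), sum_insert (by decide), sum_singleton]
  ring

/-- weights -/
noncomputable def w3 (p γ : ℝ) : L3 → ℝ
  | .v => p
  | .h => (1 - p) * γ
  | .r => (1 - p) * (1 - γ)

theorem w3_nonneg {p γ : ℝ} (hp0 : 0 ≤ p) (hp1 : p ≤ 1) (hγ0 : 0 ≤ γ) (hγ1 : γ ≤ 1) (l : L3) :
    0 ≤ w3 p γ l := by
  cases l
  · exact hp0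
  · exact mul_nonneg (by linarith) hγ0
  · exact mul_nonneg (by linarith) (by linarith)

theorem w3_sum (p γ : ℝ) : ∑ l, w3 p γ l = 1 := by
  rw [sum_L3]
  simp only [w3]
  ring

/-- weights of the two labels: `true` = test set -/
noncomputable def wb (p : ℝ) (b : Bool) : ℝ := if b then p else 1 - p

theorem wb_nonneg {p : ℝ} (hp0 : 0 ≤ p) (hp1 : p ≤ 1) (b : Bool) : 0 ≤ wb p b := by
  unfold wb
  split_ifs <;> linarith

theorem wb_sum (p : ℝ) : ∑ b, wb p b = 1 := by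
  rw [Fintype.sum_bool]
  simp [wb]

/-- the sample -/
def sset (ω : E → Bool) : Finset E := univ.filter fun e => ω e = false

theorem mem_sset {ω : E → Bool} {e : E} : e ∈ sset ω ↔ ω e = false := by simp [sset]

/-- the law of (test set, pool, rest) -/
theorem law3 (p γ : ℝ) (F : Finset E → Finset E → Finset E → ℝ) :
    EX (fun _ => wb p) (fun ω : E → Bool => T γ (sset ω) (fun G => F (tset ω) G (sset ω \ G))) =
      EX (fun _ => w3 p γ) (fun κ : E → L3 => F (lab .v κ) (lab .h κ) (lab .r κ)) := by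
  let k : E → Bool → Bool → ℝ := fun e c b =>
    if c = false then (if b then γ else 1 - γ) else (if b then 0 else 1)
  let g : Bool × Bool → L3 := fun x =>
    if x.1 = true then .v else if x.2 = true then .h else .r
  have h1 : EX (fun _ => wb p) (fun ω : E → Bool =>
        T γ (sset ω) (fun G => F (tset ω) G (sset ω \ G))) =
      EX (fun _ => wb p) (fun ω : E → Bool => EX (fun e => k e (ω e))
        (fun ω' => F (tset ω) (tset ω') (sset ω \ tset ω'))) := by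
    refine EX_congr (fun _ _ => rfl) fun ω => ?_
    unfold T TH
    refine EX_congr (fun e b => ?_) fun _ => rfl
    simp only [bw, k, mem_sset]
  have h2 : ∀ τ : E → Bool × Bool, (∀ e, wb p (τ e).1 * k e (τ e).1 (τ e).2 ≠ 0) →
      F (tset fun e => (τ e).1) (tset fun e => (τ e).2)
        (sset (fun e => (τ e).1) \ tset fun e => (τ e).2) =
      F (lab .v (g ∘ τ)) (lab .h (g ∘ τ)) (lab .r (g ∘ τ)) := by
    intro τ hτ
    have hne : ∀ e, (τ e).1 = true → (τ e).2 = false := by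
      intro e he
      by_contra h3
      have h4 : (τ e).2 = true := by simpa using h3
      apply hτ e
      simp [k, he, h4]
    have e1 : (tset fun e => (τ e).1) = lab .v (g ∘ τ) := by
      ext e
      simp only [mem_tset, mem_lab, g, Function.comp]
      by_cases h3 : (τ e).1 = true
      · simp [h3]
      · by_cases h4 : (τ e).2 = true <;> simp [h3, h4]
    have e2 : (tset fun e => (τ e).2) = lab .h (g ∘ τ) := by
      ext e
      simp only [mem_tset, mem_lab, g, Function.comp]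
      by_cases h3 : (τ e).1 = true
      · simp [h3, hne e h3]
      · by_cases h4 : (τ e).2 = true <;> simp [h3, h4]
    have e3 : (sset (fun e => (τ e).1) \ tset fun e => (τ e).2) = lab .r (g ∘ τ) := by
      ext e
      simp only [mem_tset, mem_sset, mem_sdiff, mem_lab, g, Function.comp]
      by_cases h3 : (τ e).1 = true
      · simp [h3]
      · by_cases h4 : (τ e).2 = true <;> simp [h3, h4]
    rw [e3, e1, e2]
  rw [h1, EX_bind (fun _ => wb p) k
    (fun ω ω' => F (tset ω) (tset ω') (sset ω \ tset ω')),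
    EX_congr_supp (G := fun τ => (fun κ : E → L3 => F (lab .v κ) (lab .h κ) (lab .r κ)) (g ∘ τ))
      (fun τ hτ => h2 τ hτ)]
  refine (EX_push g _ (fun κ : E → L3 => F (lab .v κ) (lab .h κ) (lab .r κ))).trans ?_
  refine EX_congr (fun e c => ?_) fun _ => rfl
  rw [sum_filter, Fintype.sum_prod_type, Fintype.sum_bool, Fintype.sum_bool, Fintype.sum_bool]
  cases c <;> simp [wb, k, g, w3]

/-- **the `J*` step** -/
theorem jstep {p γ lam : ℝ} (hp0 : 0 ≤ p) (hp1 : p ≤ 1) (hγ0 : 0 ≤ γ) (hγ1 : γ ≤ 1)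
    (hlam : 1 ≤ lam) (hlp : lam * p ≤ (1 - p) * γ)
    (Fam : Finset E → Finset E → Prop) (hFam : ∀ R A B, A ⊆ B → Fam R A → Fam R B)
    (Ev : Finset E → Finset E → Finset E → Prop) (K : Finset E → Finset E → Finset E → Finset E)
    (hK : ∀ V H R, Ev V H R → K V H R ⊆ V ∧ Fam R (K V H R)) (k : ℕ)
    (Ψ : Finset E → Finset E → Prop)
    (hΨ : ∀ V H R, Ev V H R → ∀ U ⊆ K V H R, U.card ≤ k → Ψ R (H ∪ U)) :
    EX (fun _ => w3 p γ) (fun κ : E → L3 => ind (Ev (lab L3.v κ) (lab L3.h κ) (lab L3.r κ))) ≤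
      1 / lam ^ (k + 1) +
      EX (fun _ => w3 p γ) (fun κ : E → L3 => ind (Fam (lab L3.r κ) (lab L3.h κ) ∧
        Ψ (lab L3.r κ) (lab L3.h κ))) := by
  have hw : ∀ (e : E) (l : L3), 0 ≤ (fun _ : E => w3 p γ) e l := fun _ l =>
    w3_nonneg hp0 hp1 hγ0 hγ1 l
  have hlam0 : (0 : ℝ) < lam := lt_of_lt_of_le one_pos hlam
  have hr : ∀ κ κ' : E → L3, Sim L3.v L3.h κ κ' → lab L3.r κ = lab L3.r κ' := by
    intro κ κ' hs
    ext e
    rw [mem_lab, mem_lab]
    rcases hs e with h1 | ⟨h1, h2⟩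
    · rw [h1]
    · constructor
      · intro h3
        rw [h3] at h1
        simp at h1
      · intro h3
        rw [h3] at h2
        simp at h2
  obtain ⟨U, hU1, -, hU2⟩ := jstar_label (L := L3) L3.v L3.h (by decide) (fun _ : E => w3 p γ) hw lam
    hlam0.le (fun _ => hlp) (fun κ A => Fam (lab L3.r κ) A)
    (fun κ A B hAB hA => hFam _ A B hAB hA)
    (fun κ κ' hs A hA => by
      have := hr κ κ' hs
      rw [← this]
      exact hA)
    (fun κ => Ev (lab L3.v κ) (lab L3.h κ) (lab L3.r κ))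
    (fun κ => K (lab L3.v κ) (lab L3.h κ) (lab L3.r κ))
    (fun κ hE => ⟨fun e he => mem_lab.1 ((hK _ _ _ hE).1 he), (hK _ _ _ hE).2⟩)
  -- the large ones
  have h1 : lam ^ (k + 1) * EX (fun _ => w3 p γ) (fun κ : E → L3 =>
      ind (Ev (lab L3.v κ) (lab L3.h κ) (lab L3.r κ) ∧ k + 1 ≤ (U κ).card)) ≤ 1 := by
    have h2 := hU2 (fun _ => 1) (fun _ => zero_le_one)
    rw [← EX_mul]
    refine le_trans (EX_mono hw fun κ => ?_) (h2.trans (le_trans (EX_mono hw (G := fun _ => 1)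
      fun κ => ?_) (EX_one _ (fun _ => w3_sum p γ) 1).le))
    · by_cases hE : Ev (lab L3.v κ) (lab L3.h κ) (lab L3.r κ)
      · by_cases hk : k + 1 ≤ (U κ).card
        · rw [ind_pos ⟨hE, hk⟩, if_pos hE]
          exact mul_le_mul_of_nonneg_right (pow_le_pow_right₀ hlam hk) zero_le_one
        · rw [ind_neg (fun h => hk h.2), if_pos hE, mul_zero]
          positivity
      · rw [ind_neg (fun h => hE h.1), if_neg hE, mul_zero]
    · split_ifs <;> norm_num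
  have h2 := hU2 (fun κ => ind (Ψ (lab L3.r κ) (lab L3.h κ))) (fun _ => ind_nonneg _)
  have h3 : EX (fun _ => w3 p γ) (fun κ : E → L3 => ind (Ev (lab L3.v κ) (lab L3.h κ) (lab L3.r κ))) ≤
      EX (fun _ => w3 p γ) (fun κ : E → L3 =>
        ind (Ev (lab L3.v κ) (lab L3.h κ) (lab L3.r κ) ∧ k + 1 ≤ (U κ).card)) +
      EX (fun _ => w3 p γ) (fun κ : E → L3 => if Ev (lab L3.v κ) (lab L3.h κ) (lab L3.r κ) then
        lam ^ (U κ).card * ind (Ψ (lab L3.r (H379.flip L3.h (U κ) κ)) (lab L3.h (H379.flip L3.h (U κ) κ)))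
        else 0) := by
    rw [← EX_add]
    refine EX_mono hw fun κ => ?_
    by_cases hE : Ev (lab L3.v κ) (lab L3.h κ) (lab L3.r κ)
    · rw [if_pos hE, ind_pos hE]
      by_cases hk : k + 1 ≤ (U κ).card
      · rw [ind_pos ⟨hE, hk⟩]
        have : 0 ≤ lam ^ (U κ).card * ind (Ψ (lab L3.r (H379.flip L3.h (U κ) κ))
            (lab L3.h (H379.flip L3.h (U κ) κ))) := mul_nonneg (by positivity) (ind_nonneg _)
        linarith
      · have hUv : ∀ e ∈ U κ, κ e = L3.v := fun e he =>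
          mem_lab.1 ((hK _ _ _ hE).1 ((hU1 κ hE).1 he))
        have e1 : lab L3.r (H379.flip L3.h (U κ) κ) = lab L3.r κ := (hr _ _ (sim_flip hUv)).symm
        have e2 : lab L3.h (H379.flip L3.h (U κ) κ) = lab L3.h κ ∪ U κ := lab_flip
        rw [e1, e2, ind_pos (hΨ _ _ _ hE _ (hU1 κ hE).1 (by omega)), mul_one]
        have h5 : (1 : ℝ) ≤ lam ^ (U κ).card := one_le_pow₀ hlam
        have h6 := ind_nonneg (Ev (lab L3.v κ) (lab L3.h κ) (lab L3.r κ) ∧ k + 1 ≤ (U κ).card)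
        linarith
    · rw [if_neg hE, ind_neg hE, ind_neg (fun h => hE h.1), add_zero]
  have h4 : EX (fun _ => w3 p γ) (fun κ : E → L3 => if Fam (lab L3.r κ) (lab L3.h κ) then
      ind (Ψ (lab L3.r κ) (lab L3.h κ)) else 0) = EX (fun _ => w3 p γ) (fun κ : E → L3 =>
      ind (Fam (lab L3.r κ) (lab L3.h κ) ∧ Ψ (lab L3.r κ) (lab L3.h κ))) := by
    refine EX_congr (fun _ _ => rfl) fun κ => ?_
    by_cases hF : Fam (lab L3.r κ) (lab L3.h κ)
    · rw [if_pos hF]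
      by_cases hP : Ψ (lab L3.r κ) (lab L3.h κ)
      · rw [ind_pos hP, ind_pos ⟨hF, hP⟩]
      · rw [ind_neg hP, ind_neg (fun h => hP h.2)]
    · rw [if_neg hF, ind_neg (fun h => hF h.1)]
  have h5 : EX (fun _ => w3 p γ) (fun κ : E → L3 =>
        ind (Ev (lab L3.v κ) (lab L3.h κ) (lab L3.r κ) ∧ k + 1 ≤ (U κ).card)) ≤ 1 / lam ^ (k + 1) := by
    rw [le_div_iff₀ (by positivity), mul_comm]
    exact h1
  rw [h4] at h2
  linarith

/-- **the QJRL step** -/
theorem qstep {D : Finset E → Prop} {p γ γ2 θ θ2 θ3 : ℝ} (hp0 : 0 ≤ p) (hp1 : p ≤ 1)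
    (hγ0 : 0 ≤ γ) (hγ1 : γ ≤ 1) (hγ20 : 0 ≤ γ2) (hγ21 : γ2 ≤ 1) (hθ20 : 0 ≤ θ2) (hθ21 : θ2 ≤ 1)
    (hθ30 : 0 ≤ θ3) (hθ31 : θ3 ≤ 1) (e3 : γ2 + (1 - γ2) * θ3 = θ) {k : ℕ}
    {β2 a b0 c0 β'' CQ : ℝ} (hb0 : 0 ≤ b0) (hab : a + b0 + c0 ≤ β'')
    (hQ : EX (fun _ => w3 p γ) (fun κ : E → L3 => T γ2 (lab L3.r κ) (fun G =>
      ind ((∃ Y ⊆ lab L3.h κ, Y.card ≤ k ∧ miss D θ2 (lab L3.r κ \ G) (Y ∪ G) ≤ β2) ∧
        b0 < miss D θ3 (lab L3.r κ \ G) (lab L3.h κ ∪ G)))) ≤ CQ) :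
    c0 * EX (fun _ => w3 p γ) (fun κ : E → L3 =>
      ind (T γ2 (lab L3.r κ) (fun G => fail D θ2 k β2 (lab L3.r κ) G (lab L3.h κ)) ≤ a ∧
        β'' < miss D θ (lab L3.r κ) (lab L3.h κ))) ≤ CQ := by
  have hw : ∀ (e : E) (l : L3), 0 ≤ (fun _ : E => w3 p γ) e l := fun _ l =>
    w3_nonneg hp0 hp1 hγ0 hγ1 l
  refine le_trans ?_ hQ
  rw [← EX_mul]
  refine EX_mono hw fun κ => ?_
  set H := lab L3.h κ with hH
  set R := lab L3.r κ with hR
  by_cases hE : T γ2 R (fun G => fail D θ2 k β2 R G H) ≤ a ∧ β'' < miss D θ R H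
  · rw [ind_pos hE, mul_one]
    have h1 : miss D θ R H ≤ T γ2 R (fun G => (fail D θ2 k β2 R G H + b0) +
        ind ((∃ Y ⊆ H, Y.card ≤ k ∧ miss D θ2 (R \ G) (Y ∪ G) ≤ β2) ∧
        b0 < miss D θ3 (R \ G) (H ∪ G))) := by
      rw [← miss_recycle e3 R H]
      refine T_mono hγ20 hγ21 R fun G _ => ?_
      have hm1 : miss D θ3 (R \ G) (H ∪ G) ≤ 1 := miss_le_one hθ30 hθ31 _ _
      have hi := ind_nonneg ((∃ Y ⊆ H, Y.card ≤ k ∧ miss D θ2 (R \ G) (Y ∪ G) ≤ β2) ∧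
        b0 < miss D θ3 (R \ G) (H ∪ G))
      by_cases hg : ∃ Y ⊆ H, Y.card ≤ k ∧ miss D θ2 (R \ G) (Y ∪ G) ≤ β2
      · have hf : fail D θ2 k β2 R G H = 0 := ind_neg (fun h => h hg)
        by_cases hb : b0 < miss D θ3 (R \ G) (H ∪ G)
        · rw [ind_pos ⟨hg, hb⟩, hf]
          linarith
        · rw [hf]
          linarith [not_lt.1 hb]
      · have hf : fail D θ2 k β2 R G H = 1 := ind_pos hg
        rw [hf]
        linarith
    rw [T_add, T_add, T_const] at h1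
    linarith [hE.1, hE.2]
  · rw [ind_neg hE, mul_zero]
    exact T_nonneg hγ20 hγ21 R fun _ _ => ind_nonneg _

/-! ## The two levels -/

/-- `Y` is good for the pool `G` -/
def good (D : Finset E → Prop) (θ : ℝ) (k : ℕ) (β : ℝ) (S G Y : Finset E) : Prop :=
  Y.card ≤ k ∧ miss D θ (S \ G) (Y ∪ G) ≤ β / ((Y.card : ℝ) + 1)

/-- probability that `X` has no good subset -/
noncomputable def fj (D : Finset E → Prop) (γ θ : ℝ) (k : ℕ) (β : ℝ) (S X : Finset E) : ℝ :=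
  T γ S fun G => ind (¬ ∃ Y ⊆ X, good D θ k β S G Y)

/-- violation -/
def vio (D : Finset E → Prop) (γ θ : ℝ) (k : ℕ) (β : ℝ) (Z : ℕ) (τ : ℝ) (S X : Finset E) :
    Prop :=
  X.card ≤ Z ∧ fj D γ θ k β S X ≤ τ / ((X.card : ℝ) + 1)

/-- `f` is significant for the pool `G` in a small context inside `V` -/
def Sig (D : Finset E → Prop) (θ : ℝ) (k : ℕ) (s : ℝ) (S G V : Finset E) (f : E) : Prop :=
  ∃ Y ⊆ V, f ∉ Y ∧ Y.card ≤ k ∧
    s ≤ T θ (S \ G) (fun N => ind (¬ D (Y ∪ G ∪ N) ∧ D (insert f (Y ∪ G ∪ N))))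

/-- a good set with an element which cannot be dropped: that element is significant -/
theorem sig_of_good {D : Finset E → Prop} {θ : ℝ} (hθ0 : 0 ≤ θ) (hθ1 : θ ≤ 1) {k : ℕ} {β : ℝ}
    (hβ : 0 ≤ β) {S G X Y W : Finset E} (hYX : Y ⊆ X) (hY : good D θ k β S G Y)
    (hW : ¬ ∃ Y' ⊆ X ∩ W, good D θ k β S G Y') :
    ∃ f ∈ X, f ∉ W ∧ Sig D θ k (β / ((k : ℝ) + 1) ^ 2) S G X f := by
  -- a minimal good subset
  obtain ⟨Y, hYX, hY, hmin⟩ : ∃ Y ⊆ X, good D θ k β S G Y ∧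
      ∀ Y' ⊂ Y, ¬ good D θ k β S G Y' := by
    induction Y using Finset.strongInduction with
    | H Y ih =>
      by_cases h : ∃ Y' ⊂ Y, good D θ k β S G Y'
      · obtain ⟨Y', h1, h2⟩ := h
        exact ih Y' h1 (h1.subset.trans hYX) h2
      · push Not at h
        exact ⟨Y, hYX, hY, h⟩
  obtain ⟨f, hfY, hfW⟩ : ∃ f ∈ Y, f ∉ W := by
    by_contra h
    push Not at h
    exact hW ⟨Y, fun e he => mem_inter.2 ⟨hYX he, h e he⟩, hY⟩
  refine ⟨f, hYX hfY, hfW, Y.erase f, (erase_subset _ _).trans hYX, notMem_erase _ _, ?_, ?_⟩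
  · exact (card_le_card (erase_subset _ _)).trans hY.1
  · have hcard : (Y.erase f).card + 1 = Y.card := card_erase_add_one hfY
    have h1 := hmin (Y.erase f) (erase_ssubset hfY)
    have h2 : β / (((Y.erase f).card : ℝ) + 1) < miss D θ (S \ G) (Y.erase f ∪ G) := by
      by_contra h3
      exact h1 ⟨(card_le_card (erase_subset _ _)).trans hY.1, not_lt.1 h3⟩
    have h3 : miss D θ (S \ G) (Y.erase f ∪ G) ≤ miss D θ (S \ G) (Y ∪ G) +
        T θ (S \ G) (fun N => ind (¬ D (Y.erase f ∪ G ∪ N) ∧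
          D (insert f (Y.erase f ∪ G ∪ N)))) := by
      unfold miss
      rw [← T_add]
      refine T_mono hθ0 hθ1 _ fun N _ => ?_
      have e1 : insert f (Y.erase f ∪ G ∪ N) = Y ∪ G ∪ N := by
        rw [← insert_union, ← insert_union, insert_erase hfY]
      rw [e1]
      by_cases hd : D (Y.erase f ∪ G ∪ N)
      · rw [ind_neg (not_not.2 hd)]
        linarith [ind_nonneg (¬ D (Y ∪ G ∪ N)), ind_nonneg (¬ D (Y.erase f ∪ G ∪ N) ∧ D (Y ∪ G ∪ N))]
      · by_cases hd2 : D (Y ∪ G ∪ N)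
        · rw [ind_pos hd, ind_pos (And.intro hd hd2)]
          linarith [ind_nonneg (¬ D (Y ∪ G ∪ N))]
        · rw [ind_pos hd, ind_pos hd2]
          linarith [ind_nonneg (¬ D (Y.erase f ∪ G ∪ N) ∧ D (Y ∪ G ∪ N))]
    have h4 := hY.2
    set y : ℝ := (Y.card : ℝ) with hy
    have hc : (((Y.erase f).card : ℝ) + 1) = y := by rw [hy, ← hcard]; push_cast; ring
    rw [hc] at h2
    have hy1 : (1 : ℝ) ≤ y := by
      rw [hy]
      exact_mod_cast (card_pos.2 ⟨f, hfY⟩)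
    have hyk : y ≤ (k : ℝ) := by
      rw [hy]
      exact_mod_cast hY.1
    have h5 : β / ((k : ℝ) + 1) ^ 2 ≤ β / y - β / (y + 1) := by
      have : β / y - β / (y + 1) = β / (y * (y + 1)) := by
        field_simp
        ring
      rw [this]
      refine div_le_div_of_nonneg_left hβ (by positivity) ?_
      nlinarith
    linarith

/-- **LEMMA L, abstract form.** -/
theorem lemL {D : Finset E → Prop} (hD : ∀ A B, A ⊆ B → D A → D B)
    {p γ γ2 θ θ2 θ3 lam : ℝ} (hp0 : 0 ≤ p) (hp1 : p ≤ 1)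
    (hγ0 : 0 ≤ γ) (hγ1 : γ ≤ 1) (hγ20 : 0 ≤ γ2) (hγ21 : γ2 ≤ 1) (hθ0 : 0 ≤ θ) (hθ1 : θ ≤ 1)
    (hθ20 : 0 ≤ θ2) (hθ21 : θ2 ≤ 1) (hθ30 : 0 ≤ θ3) (hθ31 : θ3 ≤ 1)
    (e1 : (1 - γ) * γ2 = γ) (e2 : (1 - γ2) * θ2 = θ) (e3 : γ2 + (1 - γ2) * θ3 = θ)
    (hlam : 1 ≤ lam) (hlp : lam * p ≤ (1 - p) * γ)
    {k Z k' Z' : ℕ} {β τ β' τ' : ℝ} (hβ : 0 ≤ β) (hτ : 0 ≤ τ) (hβ' : 0 ≤ β') (hτ' : 0 ≤ τ')
    {β2 a b0 c0 δ1 CQ : ℝ} (hβ2 : 0 < β2) (ha : 0 < a) (hb0 : 0 ≤ b0) (hc0 : 0 < c0)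
    (hab : a + b0 + c0 ≤ β' / ((k' : ℝ) + 1))
    (Es : Finset E) (hEs : Es.card ≤ Z')
    (hsig : EX (fun _ => wb p) (fun ω : E → Bool => T γ (sset ω) (fun G =>
      ind (∃ f ∈ tset ω, f ∉ Es ∧
        Sig D θ k' (β' / ((k' : ℝ) + 1) ^ 2) (sset ω) G (tset ω) f))) ≤ δ1)
    (hQ : EX (fun _ => w3 p γ) (fun κ : E → L3 => T γ2 (lab L3.r κ) (fun G =>
      ind ((∃ Y ⊆ lab L3.h κ, Y.card ≤ k ∧ miss D θ2 (lab L3.r κ \ G) (Y ∪ G) ≤ β2) ∧
        b0 < miss D θ3 (lab L3.r κ \ G) (lab L3.h κ ∪ G)))) ≤ CQ) :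
    τ' / ((Z' : ℝ) + 1) * EX (fun _ => wb p) (fun ω : E → Bool =>
      ind (∃ X ⊆ tset ω, vio D γ θ k β Z τ (sset ω) X ∧
        ¬ ∃ X' ⊆ X, vio D γ θ k' β' Z' τ' (sset ω) X')) ≤
      δ1 + (τ + β / β2) / a + 1 / lam ^ (k' + 1) + CQ / c0 := by
  have hwb : ∀ (e : E) (l : Bool), 0 ≤ (fun _ : E => wb p) e l := fun _ l => wb_nonneg hp0 hp1 l
  -- the selection, as a function of the test set
  let Bad : Finset E → Prop := fun V => ∃ X ⊆ V, vio D γ θ k β Z τ (univ \ V) X ∧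
        ¬ ∃ X' ⊆ X, vio D γ θ k' β' Z' τ' (univ \ V) X'
  have hS : ∀ ω : E → Bool, sset ω = univ \ tset ω := by
    intro ω
    ext e
    simp [mem_sset, mem_tset]
  obtain ⟨X, hX⟩ : ∃ X : Finset E → Finset E, ∀ V, Bad V → X V ⊆ V ∧
      vio D γ θ k β Z τ (univ \ V) (X V) ∧
        ¬ ∃ X' ⊆ X V, vio D γ θ k' β' Z' τ' (univ \ V) X' := by
    refine ⟨fun V => if h : Bad V then h.choose else ∅, fun V hV => ?_⟩
    dsimp only
    rw [dif_pos hV]
    exact hV.choose_spec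
  let Fam : Finset E → Finset E → Prop := fun R A =>
    T γ2 R (fun G => fail D θ2 k β2 R G A) ≤ a
  have hFam : ∀ R A B, A ⊆ B → Fam R A → Fam R B := by
    intro R A B hAB hA
    refine le_trans (T_mono hγ20 hγ21 R fun G _ => ind_mono fun h => ?_) hA
    rintro ⟨Y, h1, h2⟩
    exact h ⟨Y, h1.trans hAB, h2⟩
  -- failing with the pool `G` at the lower level
  let NG : Finset E → Finset E → Finset E → Prop := fun V G R =>
    ¬ ∃ Y ⊆ X V, Y.card ≤ k' ∧ miss D θ R (Y ∪ G) ≤ β' / ((Y.card : ℝ) + 1)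
  let Ev : Finset E → Finset E → Finset E → Prop := fun V G R =>
    Bad V ∧ NG V G R ∧ Fam R (X V)
  -- first inequality, pointwise
  have hpt : ∀ ω : E → Bool, τ' / ((Z' : ℝ) + 1) * ind (Bad (tset ω)) ≤
      T γ (sset ω) (fun G => ind (∃ f ∈ tset ω, f ∉ Es ∧
        Sig D θ k' (β' / ((k' : ℝ) + 1) ^ 2) (sset ω) G (tset ω) f)) +
      ((τ + β / β2) / a +
      T γ (sset ω) (fun G => ind (Ev (tset ω) G (sset ω \ G)))) := by
    intro ω
    have hZ : (0 : ℝ) < (Z' : ℝ) + 1 := by positivity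
    have hn1 : 0 ≤ T γ (sset ω) (fun G => ind (∃ f ∈ tset ω, f ∉ Es ∧
        Sig D θ k' (β' / ((k' : ℝ) + 1) ^ 2) (sset ω) G (tset ω) f)) :=
      T_nonneg hγ0 hγ1 _ fun _ _ => ind_nonneg _
    have hn2 : 0 ≤ T γ (sset ω) (fun G => ind (Ev (tset ω) G (sset ω \ G))) :=
      T_nonneg hγ0 hγ1 _ fun _ _ => ind_nonneg _
    by_cases hB : Bad (tset ω)
    · obtain ⟨hXV, hXv, hXn⟩ := hX _ hB
      rw [ind_pos hB, mul_one]
      rw [← hS ω] at hXv hXn
      -- transfer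
      have htr : T γ (sset ω) (fun G => fail D θ k β (sset ω) G (X (tset ω))) ≤ τ := by
        have h1 : T γ (sset ω) (fun G => fail D θ k β (sset ω) G (X (tset ω))) ≤
            fj D γ θ k β (sset ω) (X (tset ω)) := by
          refine T_mono hγ0 hγ1 _ fun G _ => ind_mono fun h => ?_
          rintro ⟨Y, h1, h2, h3⟩
          refine h ⟨Y, h1, h2, h3.trans ?_⟩
          exact div_le_self hβ (by have : (0 : ℝ) ≤ (Y.card : ℝ) := Nat.cast_nonneg _; linarith)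
        have h2 : 0 ≤ T γ (sset ω) (fun G => fail D θ k β (sset ω) G (X (tset ω))) :=
          T_nonneg hγ0 hγ1 _ fun _ _ => ind_nonneg _
        have h3 := h1.trans hXv.2
        have hc : (0 : ℝ) ≤ ((X (tset ω)).card : ℝ) := Nat.cast_nonneg _
        have hτ : 0 ≤ τ := by
          by_contra h4
          have h5 : τ / (((X (tset ω)).card : ℝ) + 1) < 0 :=
            div_neg_of_neg_of_pos (not_le.1 h4) (by positivity)
          linarith
        exact h3.trans (div_le_self hτ (by linarith))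
      have htr2 := transfer (D := D) (β2 := β2) (a := a) hγ0 hγ1 hγ20 hγ21 hθ20 hθ21 e1 e2 (sset ω)
        (X (tset ω)) hβ hβ2 htr
      have htr3 : T γ (sset ω) (fun G2 => ind (¬ Fam (sset ω \ G2) (X (tset ω)))) ≤
          (τ + β / β2) / a := by
        rw [le_div_iff₀ ha, mul_comm]
        exact htr2
      -- the lower level
      have hlow : τ' / ((Z' : ℝ) + 1) ≤ fj D γ θ k' β' (sset ω) (X (tset ω) ∩ Es) := by
        have h1 : (X (tset ω) ∩ Es).card ≤ Z' := (card_le_card inter_subset_right).trans hEs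
        have h2 : ¬ vio D γ θ k' β' Z' τ' (sset ω) (X (tset ω) ∩ Es) := fun h =>
          hXn ⟨_, inter_subset_left, h⟩
        have h3 : τ' / (((X (tset ω) ∩ Es).card : ℝ) + 1) <
            fj D γ θ k' β' (sset ω) (X (tset ω) ∩ Es) := by
          by_contra h4
          exact h2 ⟨h1, not_lt.1 h4⟩
        refine le_trans ?_ h3.le
        refine div_le_div_of_nonneg_left hτ' (by positivity) ?_
        have : ((X (tset ω) ∩ Es).card : ℝ) ≤ (Z' : ℝ) := by exact_mod_cast h1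
        linarith
      have hsplit : fj D γ θ k' β' (sset ω) (X (tset ω) ∩ Es) ≤
          T γ (sset ω) (fun G => ind (∃ f ∈ tset ω, f ∉ Es ∧
            Sig D θ k' (β' / ((k' : ℝ) + 1) ^ 2) (sset ω) G (tset ω) f) +
            (ind (¬ Fam (sset ω \ G) (X (tset ω))) +
            ind (Ev (tset ω) G (sset ω \ G)))) := by
        refine T_mono hγ0 hγ1 _ fun G _ => ?_
        have i1 := ind_nonneg (∃ f ∈ tset ω, f ∉ Es ∧
            Sig D θ k' (β' / ((k' : ℝ) + 1) ^ 2) (sset ω) G (tset ω) f)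
        have i2 := ind_nonneg (¬ Fam (sset ω \ G) (X (tset ω)))
        have i3 := ind_nonneg (Ev (tset ω) G (sset ω \ G))
        by_cases h0 : ∃ Y ⊆ X (tset ω) ∩ Es, good D θ k' β' (sset ω) G Y
        · rw [ind_neg (not_not.2 h0)]
          linarith
        · rw [ind_pos h0]
          by_cases h1 : ∃ Y ⊆ X (tset ω), good D θ k' β' (sset ω) G Y
          · obtain ⟨Y, hY1, hY2⟩ := h1
            obtain ⟨f, hf1, hf2, Y', hf3, hf4⟩ := sig_of_good hθ0 hθ1 hβ' hY1 hY2 h0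
            rw [ind_pos (show ∃ f ∈ tset ω, f ∉ Es ∧
              Sig D θ k' (β' / ((k' : ℝ) + 1) ^ 2) (sset ω) G (tset ω) f from
                ⟨f, hXV hf1, hf2, Y', hf3.trans hXV, hf4⟩)]
            linarith
          · by_cases h2 : Fam (sset ω \ G) (X (tset ω))
            · rw [ind_pos (show Ev (tset ω) G (sset ω \ G) from ⟨hB, h1, h2⟩)]
              linarith
            · rw [ind_pos h2]
              linarith
      rw [T_add, T_add] at hsplit
      linarith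
    · rw [ind_neg hB, mul_zero]
      have : 0 ≤ (τ + β / β2) / a := by positivity
      linarith
  have hC : (0 : ℝ) ≤ (k' : ℝ) + 1 := by positivity
  let Ψ : Finset E → Finset E → Prop := fun R A => β' / ((k' : ℝ) + 1) < miss D θ R A
  have hj := jstep (E := E) hp0 hp1 hγ0 hγ1 hlam hlp Fam hFam Ev (fun V _ _ => X V)
    (fun V H R hE => ⟨(hX V hE.1).1, hE.2.2⟩) k' Ψ (by
      intro V H R hE U hU hUk
      have h1 : ¬ (miss D θ R (U ∪ H) ≤ β' / ((U.card : ℝ) + 1)) := fun h =>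
        hE.2.1 ⟨U, hU, hUk, h⟩
      have h2 : β' / ((k' : ℝ) + 1) ≤ β' / ((U.card : ℝ) + 1) := by
        refine div_le_div_of_nonneg_left hβ' (by positivity) ?_
        have : (U.card : ℝ) ≤ (k' : ℝ) := by exact_mod_cast hUk
        linarith
      show β' / ((k' : ℝ) + 1) < miss D θ R (H ∪ U)
      rw [union_comm]
      exact lt_of_le_of_lt h2 (not_le.1 h1))
  have hq := qstep (D := D) (p := p) (γ := γ) hp0 hp1 hγ0 hγ1 hγ20 hγ21 hθ20 hθ21 hθ30 hθ31 e3
    hb0 hab hQ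
  have hq2 : EX (fun _ => w3 p γ) (fun κ : E → L3 => ind (Fam (lab L3.r κ) (lab L3.h κ) ∧
      Ψ (lab L3.r κ) (lab L3.h κ))) ≤ CQ / c0 := by
    rw [le_div_iff₀ hc0, mul_comm]
    exact hq
  have hl := law3 (E := E) p γ (fun V G R => ind (Ev V G R))
  have hgoal : (fun ω : E → Bool => ind (∃ X ⊆ tset ω, vio D γ θ k β Z τ (sset ω) X ∧
        ¬ ∃ X' ⊆ X, vio D γ θ k' β' Z' τ' (sset ω) X')) = fun ω => ind (Bad (tset ω)) := by
    funext ω
    rw [hS ω]
  rw [hgoal, ← EX_mul]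
  refine (EX_mono hwb hpt).trans ?_
  rw [EX_add, EX_add, EX_one _ (fun _ => wb_sum p), hl]
  linarith

end

end Vale.Agent.P331.H141
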